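import Crest.Agent.Snaky.Fin.Tab
set_option autoImplicit false
set_option maxRecDepth 100000
namespace Crest.Agent.Snaky
theorem c8 : chkT tab t8 = true := by decide +kernel
theorem c9 : chkT tab t9 = true := by decide +kernel
theorem c10 : chkT tab t10 = true := by decide +kernel
theorem c11 : chkT tab t11 = true := by decide +kernel
theorem c12 : chkT tab t12 = true := by decide +kernel
theorem c13 : chkT tab t13 = true := by decide +kernel
theorem c14 : chkT tab t14 = true := by decide +kernel
theorem c15 : chkT tab t15 = true := by decide +kernel
end Crest.Agent.Snaky
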