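import Crest.Agent.Snaky.Fin.Tab
set_option autoImplicit false
set_option maxRecDepth 100000
namespace Crest.Agent.Snaky
theorem c16 : chkT tab t16 = true := by decide +kernel
theorem c17 : chkT tab t17 = true := by decide +kernel
theorem c18 : chkT tab t18 = true := by decide +kernel
theorem c19 : chkT tab t19 = true := by decide +kernel
theorem c20 : chkT tab t20 = true := by decide +kernel
theorem c21 : chkT tab t21 = true := by decide +kernel
theorem c22 : chkT tab t22 = true := by decide +kernel
theorem c23 : chkT tab t23 = true := by decide +kernel
end Crest.Agent.Snaky
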