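import Crest.Agent.Snaky.Fin.Tab
set_option autoImplicit false
set_option maxRecDepth 100000
namespace Crest.Agent.Snaky
theorem c24 : chkT tab t24 = true := by decide +kernel
theorem c25 : chkT tab t25 = true := by decide +kernel
theorem c26 : chkT tab t26 = true := by decide +kernel
theorem c27 : chkT tab t27 = true := by decide +kernel
theorem c28 : chkT tab t28 = true := by decide +kernel
theorem c29 : chkT tab t29 = true := by decide +kernel
theorem c30 : chkT tab t30 = true := by decide +kernel
theorem c31 : chkT tab t31 = true := by decide +kernel
end Crest.Agent.Snaky
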