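import Crest.Agent.Snaky.Fin.Tab
set_option autoImplicit false
set_option maxRecDepth 100000
namespace Crest.Agent.Snaky
theorem c32 : chkT tab t32 = true := by decide +kernel
theorem c33 : chkT tab t33 = true := by decide +kernel
theorem c34 : chkT tab t34 = true := by decide +kernel
theorem c35 : chkT tab t35 = true := by decide +kernel
theorem c36 : chkT tab t36 = true := by decide +kernel
theorem c37 : chkT tab t37 = true := by decide +kernel
theorem c38 : chkT tab t38 = true := by decide +kernel
theorem c39 : chkT tab t39 = true := by decide +kernel
end Crest.Agent.Snaky
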