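import Crest.Agent.Snaky.Fin.Tab
set_option autoImplicit false
set_option maxRecDepth 100000
namespace Crest.Agent.Snaky
theorem c40 : chkT tab t40 = true := by decide +kernel
theorem c41 : chkT tab t41 = true := by decide +kernel
theorem c42 : chkT tab t42 = true := by decide +kernel
theorem c43 : chkT tab t43 = true := by decide +kernel
theorem c44 : chkT tab t44 = true := by decide +kernel
theorem c45 : chkT tab t45 = true := by decide +kernel
theorem c46 : chkT tab t46 = true := by decide +kernel
theorem c47 : chkT tab t47 = true := by decide +kernel
end Crest.Agent.Snaky
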