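import Crest.Agent.Snaky.Fin.Tab
set_option autoImplicit false
set_option maxRecDepth 100000
namespace Crest.Agent.Snaky
theorem c48 : chkT tab t48 = true := by decide +kernel
theorem c49 : chkT tab t49 = true := by decide +kernel
theorem c50 : chkT tab t50 = true := by decide +kernel
theorem c51 : chkT tab t51 = true := by decide +kernel
theorem c52 : chkT tab t52 = true := by decide +kernel
theorem c53 : chkT tab t53 = true := by decide +kernel
theorem c54 : chkT tab t54 = true := by decide +kernel
theorem c55 : chkT tab t55 = true := by decide +kernel
end Crest.Agent.Snaky
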