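import Crest.Agent.Snaky.Fin.Tab
set_option autoImplicit false
set_option maxRecDepth 100000
namespace Crest.Agent.Snaky
theorem c56 : chkT tab t56 = true := by decide +kernel
end Crest.Agent.Snaky
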