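import Crest.Agent.Snaky.Fin.K0
import Crest.Agent.Snaky.Fin.K1
import Crest.Agent.Snaky.Fin.K2
import Crest.Agent.Snaky.Fin.K3
import Crest.Agent.Snaky.Fin.K4
import Crest.Agent.Snaky.Fin.K5
import Crest.Agent.Snaky.Fin.K6
import Crest.Agent.Snaky.Fin.K7
import Crest.Agent.Snaky.Sound2
set_option autoImplicit false
set_option maxRecDepth 100000
namespace Crest.Agent.Snaky
theorem all_ok : chkT tab tab = true :=
  chkT_node 7168 (chkT_node 3584 (chkT_node 1792 (chkT_node 768 (chkT_node 256 (c0) (chkT_node 512 (c1) (c2))) (chkT_node 1280 (chkT_node 1024 (c3) (c4)) (chkT_node 1536 (c5) (c6)))) (chkT_node 2560 (chkT_node 2048 (c7) (chkT_node 2304 (c8) (c9))) (chkT_node 3072 (chkT_node 2816 (c10) (c11)) (chkT_node 3328 (c12) (c13))))) (chkT_node 5376 (chkT_node 4352 (chkT_node 3840 (c14) (chkT_node 4096 (c15) (c16))) (chkT_node 4864 (chkT_node 4608 (c17) (c18)) (chkT_node 5120 (c19) (c20)))) (chkT_node 6144 (chkT_node 5632 (c21) (chkT_node 5888 (c22) (c23)))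 (chkT_node 6656 (chkT_node 6400 (c24) (c25)) (chkT_node 6912 (c26) (c27)))))) (chkT_node 10752 (chkT_node 8960 (chkT_node 7936 (chkT_node 7424 (c28) (chkT_node 7680 (c29) (c30))) (chkT_node 8448 (chkT_node 8192 (c31) (c32)) (chkT_node 8704 (c33) (c34)))) (chkT_node 9728 (chkT_node 9216 (c35) (chkT_node 9472 (c36) (c37))) (chkT_node 10240 (chkT_node 9984 (c38) (c39)) (chkT_node 10496 (c40) (c41))))) (chkT_node 12544 (chkT_node 11520 (chkT_node 11008 (c42) (chkT_node 11264 (c43) (c44))) (chkT_node 12032 (chkT_node 11776 (c45) (c46)) (chkT_node 12288 (c47) (c48)))) (chkT_node 13568 (chkT_node 13056 (chkT_node 12800 (c49) (c50)) (chkT_node 13312 (c51) (c52))) (chkT_node 14080 (chkT_node 13824 (c53) (c54)) (chkT_node 14336 (c55) (c56))))))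
end Crest.Agent.Snaky
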