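import Crest.Agent.Snaky.Fin.Tab
set_option autoImplicit false
set_option maxRecDepth 100000
namespace Crest.Agent.Snaky
theorem c0 : chkT tab t0 = true := by decide +kernel
theorem c1 : chkT tab t1 = true := by decide +kernel
theorem c2 : chkT tab t2 = true := by decide +kernel
theorem c3 : chkT tab t3 = true := by decide +kernel
theorem c4 : chkT tab t4 = true := by decide +kernel
theorem c5 : chkT tab t5 = true := by decide +kernel
theorem c6 : chkT tab t6 = true := by decide +kernel
theorem c7 : chkT tab t7 = true := by decide +kernel
end Crest.Agent.Snaky
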