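import Crest.Agent.Snaky.Fin.T0
import Crest.Agent.Snaky.Fin.T1
import Crest.Agent.Snaky.Fin.T2
import Crest.Agent.Snaky.Fin.T3
set_option autoImplicit false
namespace Crest.Agent.Snaky
noncomputable def tab : Tbl := Tbl.node 7168 (Tbl.node 3584 (Tbl.node 1792 (Tbl.node 768 (Tbl.node 256 (t0) (Tbl.node 512 (t1) (t2))) (Tbl.node 1280 (Tbl.node 1024 (t3) (t4)) (Tbl.node 1536 (t5) (t6)))) (Tbl.node 2560 (Tbl.node 2048 (t7) (Tbl.node 2304 (t8) (t9))) (Tbl.node 3072 (Tbl.node 2816 (t10) (t11)) (Tbl.node 3328 (t12) (t13))))) (Tbl.node 5376 (Tbl.node 4352 (Tbl.node 3840 (t14) (Tbl.node 4096 (t15) (t16))) (Tbl.node 4864 (Tbl.node 4608 (t17) (t18)) (Tbl.node 5120 (t19) (t20)))) (Tbl.node 6144 (Tbl.node 5632 (t21) (Tbl.node 5888 (t22) (t23))) (Tbl.node 6656 (Tbl.node 6400 (t24) (t25)) (Tbl.node 6912 (t26) (t27)))))) (Tbl.node 10752 (Tbl.node 8960 (Tbl.node 7936 (Tbl.node 7424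 (t28) (Tbl.node 7680 (t29) (t30))) (Tbl.node 8448 (Tbl.node 8192 (t31) (t32)) (Tbl.node 8704 (t33) (t34)))) (Tbl.node 9728 (Tbl.node 9216 (t35) (Tbl.node 9472 (t36) (t37))) (Tbl.node 10240 (Tbl.node 9984 (t38) (t39)) (Tbl.node 10496 (t40) (t41))))) (Tbl.node 12544 (Tbl.node 11520 (Tbl.node 11008 (t42) (Tbl.node 11264 (t43) (t44))) (Tbl.node 12032 (Tbl.node 11776 (t45) (t46)) (Tbl.node 12288 (t47) (t48)))) (Tbl.node 13568 (Tbl.node 13056 (Tbl.node 12800 (t49) (t50)) (Tbl.node 13312 (t51) (t52))) (Tbl.node 14080 (Tbl.node 13824 (t53) (t54)) (Tbl.node 14336 (t55) (t56))))))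
end Crest.Agent.Snaky
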